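import Vale.Agent.P106.Main2

open MeasureTheory FourierTransform Set Vale.Agent.P117 Vale.Agent.P106

theorem Vale.Agent.Results.P106.All.result (p α : ℝ) (h2 : 2 < p) (h4 : p ≤ 4) (hα : 0 < α)
    (hc : (1 - 3 / p) / 2 < α) (hα2 : α ≤ 2) :
    ∃ C : NNReal, ∀ l : ℝ, 1 ≤ l → ∀ g : Fin 3 → SchwartzMap ℝ ℂ,
      (∀ y, l ^ (3 / 4 : ℝ) < |y| → 𝓕 (g 0 : ℝ → ℂ) y = 0) →
      (∀ y, l ^ (3 / 4 : ℝ) < |y| → 𝓕 (g 1 : ℝ → ℂ) y = 0) →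
      (∀ y, y ∉ Icc l (l + √l) → 𝓕 (g 2 : ℝ → ℂ) y = 0) →
      (∀ f : SchwartzMap E3 ℂ, J α f = tens g →
        eLpNorm (fun z : ℝ × E3 => Uw f z.1 z.2) (ENNReal.ofReal p)
          ((volume.restrict (Icc (1 : ℝ) 2)).prod volume) ≤
          C * eLpNorm (J α f) (ENNReal.ofReal p) volume) ∧
      eLpNorm (fun z : ℝ × E3 => Uw (tens g) z.1 z.2) (ENNReal.ofReal p)
        ((volume.restrict (Icc (1 : ℝ) 2)).prod volume) ≤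
        C * ENNReal.ofReal (l ^ α) * eLpNorm (tens g) (ENNReal.ofReal p) volume :=
  fin3 s_lprod s_iprod (l_und s_young) l_sc b_rep b_main b_main2 p α h2 h4 hα hc hα2
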