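import Vale.Agent.P106.Main

open MeasureTheory FourierTransform Set Vale.Agent.P117 Vale.Agent.P106

theorem Vale.Agent.Results.P106.Tensor.result (p α : ℝ) (h2 : 2 < p) (h3 : p ≤ 3) (hα : 0 < α)
    (hα2 : α ≤ 2) :
    ∃ C : NNReal, ∀ l : ℝ, 1 ≤ l → ∀ g : Fin 3 → SchwartzMap ℝ ℂ,
      (∀ y, l ^ (3 / 4 : ℝ) < |y| → 𝓕 (g 0 : ℝ → ℂ) y = 0) →
      (∀ y, l ^ (3 / 4 : ℝ) < |y| → 𝓕 (g 1 : ℝ → ℂ) y = 0) →
      (∀ y, y ∉ Icc l (l + √l) → 𝓕 (g 2 : ℝ → ℂ) y = 0) →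
      (∀ f : SchwartzMap E3 ℂ, J α f = tens g →
        eLpNorm (fun z : ℝ × E3 => Uw f z.1 z.2) (ENNReal.ofReal p)
          ((volume.restrict (Icc (1 : ℝ) 2)).prod volume) ≤
          C * eLpNorm (J α f) (ENNReal.ofReal p) volume) ∧
      eLpNorm (fun z : ℝ × E3 => Uw (tens g) z.1 z.2) (ENNReal.ofReal p)
        ((volume.restrict (Icc (1 : ℝ) 2)).prod volume) ≤
        C * ENNReal.ofReal (l ^ α) * eLpNorm (tens g) (ENNReal.ofReal p) volume := by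
  obtain ⟨A, hA⟩ := fin2 s_lprod s_iprod (l_und s_young) l_sc b_rep b_main p α h2 h3 hα hα2
  obtain ⟨B, hB⟩ := fin1 s_lprod b_goal p α h2 h3 hα
  refine ⟨max A B, fun l hl g b0 b1 b2 => ⟨fun f hf => (hA l hl g b0 b1 b2 f hf).trans ?_,
    (hB l hl g b0 b1 b2).trans ?_⟩⟩
  · exact mul_le_mul_left (ENNReal.coe_le_coe.2 (le_max_left _ _)) _
  · exact mul_le_mul_left (mul_le_mul_left (ENNReal.coe_le_coe.2 (le_max_right _ _)) _) _
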